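import Vale.Agent.P102.Stages

open MeasureTheory Filter Topology

namespace Vale.Agent.P102

variable {Ω : Type*} [MeasurableSpace Ω]

/-- atoms of the algebra generated by three sets -/
def atom (A B C : Set Ω) (e : Bool × Bool × Bool) : Set Ω :=
  (cond e.1 A Aᶜ) ∩ (cond e.2.1 B Bᶜ) ∩ (cond e.2.2 C Cᶜ)

theorem measurableSet_atom {A B C : Set Ω} (hA : MeasurableSet A) (hB : MeasurableSet B)
    (hC : MeasurableSet C) (e : Bool × Bool × Bool) : MeasurableSet (atom A B C e) := by
  obtain ⟨e1, e2, e3⟩ := e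
  cases e1 <;> cases e2 <;> cases e3 <;>
    simp only [atom, cond_true, cond_false] <;>
    first
    | exact (hA.inter hB).inter hC
    | exact (hA.inter hB).inter hC.compl
    | exact (hA.inter hB.compl).inter hC
    | exact (hA.inter hB.compl).inter hC.compl
    | exact (hA.compl.inter hB).inter hC
    | exact (hA.compl.inter hB).inter hC.compl
    | exact (hA.compl.inter hB.compl).inter hC
    | exact (hA.compl.inter hB.compl).inter hC.compl

omit [MeasurableSpace Ω] in
theorem mem_atom_iff {A B C : Set Ω} (e : Bool × Bool × Bool) (ω : Ω) :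
    ω ∈ atom A B C e ↔ ((e.1 = true ↔ ω ∈ A) ∧ (e.2.1 = true ↔ ω ∈ B) ∧ (e.2.2 = true ↔ ω ∈ C)) := by
  obtain ⟨e1, e2, e3⟩ := e
  cases e1 <;> cases e2 <;> cases e3 <;> simp [atom, and_assoc]

omit [MeasurableSpace Ω] in
theorem pairwise_disjoint_atom (A B C : Set Ω) :
    Pairwise (Function.onFun Disjoint (atom A B C)) := by
  intro e e' hne
  rw [Function.onFun, Set.disjoint_left]
  intro ω h1 h2
  rw [mem_atom_iff] at h1 h2
  apply hne
  obtain ⟨a1, a2, a3⟩ := h1
  obtain ⟨b1, b2, b3⟩ := h2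
  ext
  · exact Bool.eq_iff_iff.mpr (a1.trans b1.symm)
  · exact Bool.eq_iff_iff.mpr (a2.trans b2.symm)
  · exact Bool.eq_iff_iff.mpr (a3.trans b3.symm)

omit [MeasurableSpace Ω] in
theorem eq_iUnion_atom₁ (A B C : Set Ω) :
    A = ⋃ e ∈ (Finset.univ.filter (fun e : Bool × Bool × Bool => e.1 = true)), atom A B C e := by
  classical
  ext ω
  simp only [Set.mem_iUnion, Finset.mem_filter, Finset.mem_univ, true_and, exists_prop, mem_atom_iff]
  constructor
  · intro h
    exact ⟨(true, decide (ω ∈ B), decide (ω ∈ C)), rfl, by simp [h]⟩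
  · rintro ⟨e, he, h1, -, -⟩
    exact h1.mp he

omit [MeasurableSpace Ω] in
theorem eq_iUnion_atom₂ (A B C : Set Ω) :
    B = ⋃ e ∈ (Finset.univ.filter (fun e : Bool × Bool × Bool => e.2.1 = true)), atom A B C e := by
  classical
  ext ω
  simp only [Set.mem_iUnion, Finset.mem_filter, Finset.mem_univ, true_and, exists_prop, mem_atom_iff]
  constructor
  · intro h
    exact ⟨(decide (ω ∈ A), true, decide (ω ∈ C)), rfl, by simp [h]⟩
  · rintro ⟨e, he, -, h1, -⟩
    exact h1.mp he

omit [MeasurableSpace Ω] in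
theorem eq_iUnion_atom₃ (A B C : Set Ω) :
    C = ⋃ e ∈ (Finset.univ.filter (fun e : Bool × Bool × Bool => e.2.2 = true)), atom A B C e := by
  classical
  ext ω
  simp only [Set.mem_iUnion, Finset.mem_filter, Finset.mem_univ, true_and, exists_prop, mem_atom_iff]
  constructor
  · intro h
    exact ⟨(decide (ω ∈ A), decide (ω ∈ B), true), rfl, by simp [h]⟩
  · rintro ⟨e, he, -, -, h1⟩
    exact h1.mp he

theorem eq_prod {μ : Measure Ω} [IsProbabilityMeasure μ] {T : Ω → Ω}
    (hT : MeasurePreserving T μ μ) (hmix : Mixing μ T)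
    {ν : Set Ω → Set Ω → Set Ω → ℝ} (h : IsPreJoining μ ν) (hcs : HasCS T ν)
    (hdiag : ∀ A, MeasurableSet A → ν A A A ≤ μ.real A ^ 3)
    {A B C : Set Ω} (hA : MeasurableSet A) (hB : MeasurableSet B) (hC : MeasurableSet C) :
    ν A B C = μ.real A * μ.real B * μ.real C := by
  have hdiag' : ∀ A, MeasurableSet A → ν A A A = μ.real A ^ 3 := fun A hA => h.diag_eq hdiag hA
  have hdisj : ∀ {A B C : Set Ω}, DisjTriple A B C → ν A B C = μ.real A * μ.real B * μ.real C :=
    fun hD => eq_prod_of_disjoint hT hmix h hcs hdiag' hD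
  have hPPQ : ∀ {P Q : Set Ω}, MeasurableSet P → MeasurableSet Q → Disjoint P Q →
      ν P P Q = μ.real P * μ.real P * μ.real Q :=
    fun hP hQ hPQ => eq_prod_PPQ hT hmix h hdisj hP hQ hPQ
  have hPQP : ∀ {P Q : Set Ω}, MeasurableSet P → MeasurableSet Q → Disjoint P Q →
      ν P Q P = μ.real P * μ.real P * μ.real Q := by
    intro P Q hP hQ hPQ
    refine eq_prod_PPQ hT hmix h.swap₂₃ ?_ hP hQ hPQ
    intro A B C hD
    obtain ⟨hA, hB, hC, hAB, hAC, hBC⟩ := hD
    rw [hdisj ⟨hA, hC, hB, hAC, hAB, hBC.symm⟩]; ring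
  have hQPP : ∀ {P Q : Set Ω}, MeasurableSet P → MeasurableSet Q → Disjoint P Q →
      ν Q P P = μ.real P * μ.real P * μ.real Q := by
    intro P Q hP hQ hPQ
    refine eq_prod_PPQ hT hmix h.rot ?_ hP hQ hPQ
    intro A B C hD
    obtain ⟨hA, hB, hC, hAB, hAC, hBC⟩ := hD
    rw [hdisj ⟨hC, hA, hB, hAC.symm, hBC.symm, hAB⟩]; ring
  have hX := measurableSet_atom hA hB hC
  have hd := pairwise_disjoint_atom A B C
  have hatoms : ∀ i j k, ν (atom A B C i) (atom A B C j) (atom A B C k)
      = μ.real (atom A B C i) * μ.real (atom A B C j) * μ.real (atom A B C k) := by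
    intro i j k
    by_cases hij : i = j
    · subst hij
      by_cases hik : i = k
      · subst hik
        rw [hdiag' _ (hX i)]; ring
      · exact hPPQ (hX i) (hX k) (hd hik)
    · by_cases hik : i = k
      · subst hik
        rw [hPQP (hX i) (hX j) (hd hij)]; ring
      · by_cases hjk : j = k
        · subst hjk
          rw [hQPP (hX j) (hX i) (hd (Ne.symm hij))]; ring
        · exact hdisj ⟨hX i, hX j, hX k, hd hij, hd hik, hd hjk⟩
  have e1 := eq_iUnion_atom₁ A B C
  have e2 := eq_iUnion_atom₂ A B C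
  have e3 := eq_iUnion_atom₃ A B C
  have m1 := IsPreJoining.measureReal_U (μ := μ) hX hd
    (Finset.univ.filter (fun e : Bool × Bool × Bool => e.1 = true))
  have m2 := IsPreJoining.measureReal_U (μ := μ) hX hd
    (Finset.univ.filter (fun e : Bool × Bool × Bool => e.2.1 = true))
  have m3 := IsPreJoining.measureReal_U (μ := μ) hX hd
    (Finset.univ.filter (fun e : Bool × Bool × Bool => e.2.2 = true))
  rw [← e1] at m1
  rw [← e2] at m2
  rw [← e3] at m3
  have key := h.sum_all hX hd (Finset.univ.filter (fun e : Bool × Bool × Bool => e.1 = true))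
    (Finset.univ.filter (fun e : Bool × Bool × Bool => e.2.1 = true))
    (Finset.univ.filter (fun e : Bool × Bool × Bool => e.2.2 = true))
  rw [← e1, ← e2, ← e3] at key
  rw [key, m1, m2, m3, Finset.sum_mul_sum, Finset.sum_mul]
  apply Finset.sum_congr rfl
  intro i _
  rw [Finset.sum_mul]
  apply Finset.sum_congr rfl
  intro j _
  rw [Finset.mul_sum]
  apply Finset.sum_congr rfl
  intro k _
  exact hatoms i j k

end Vale.Agent.P102
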