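import Vale.Agent.P102.Limit

open MeasureTheory Filter Topology

namespace Vale.Agent.P102

variable {Ω : Type*} [MeasurableSpace Ω]

theorem IsPreJoining.diag_le_of_ge {μ : Measure Ω} [IsProbabilityMeasure μ]
    {ν : Set Ω → Set Ω → Set Ω → ℝ} (h : IsPreJoining μ ν)
    (hdiag : ∀ A, MeasurableSet A → μ.real A ^ 3 ≤ ν A A A) {A : Set Ω} (hA : MeasurableSet A) :
    ν A A A ≤ μ.real A ^ 3 := by
  have h1 := hdiag Aᶜ hA.compl
  rw [h.compl₁ hA hA.compl hA.compl, h.compl₂ hA hA hA.compl, h.compl₃ hA hA hA,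
    probReal_compl_eq_one_sub hA] at h1
  nlinarith

theorem eq_prod_of_bounded_ratio {μ : Measure Ω} [IsProbabilityMeasure μ] {T : Ω → Ω}
    (hT : MeasurePreserving T μ μ) (hmix : Mixing μ T)
    {ν : Set Ω → Set Ω → Set Ω → ℝ} (h : IsPreJoining μ ν) (hcs : HasCS T ν) {K : ℝ}
    (hK : ∀ A B C, MeasurableSet A → MeasurableSet B → MeasurableSet C →
      ν A B C ≤ K * (μ.real A * μ.real B * μ.real C))
    {A B C : Set Ω} (hA : MeasurableSet A) (hB : MeasurableSet B) (hC : MeasurableSet C) :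
    ν A B C = μ.real A * μ.real B * μ.real C := by
  have hle : ∀ {A B C : Set Ω}, MeasurableSet A ∧ MeasurableSet B ∧ MeasurableSet C →
      ν A B C ≤ μ.real A * μ.real B * μ.real C := by
    intro A B C hS
    refine le_of_dominated hT hmix hcs h.nonneg
      (fun A B C => MeasurableSet A ∧ MeasurableSet B ∧ MeasurableSet C) (fun hS => hS)
      ?_ (x := |K|) (abs_nonneg K) ?_ hS
    · intro A B C hS i j
      have hm : ∀ n, Measurable (T^[n]) := fun n => (hT.iterate n).measurable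
      exact ⟨(hm i hS.1).inter (hm j hS.1), (hm i hS.2.1).inter (hm j hS.2.1),
        (hm i hS.2.2).inter (hm j hS.2.2)⟩
    · intro A B C hS
      refine (hK A B C hS.1 hS.2.1 hS.2.2).trans ?_
      apply mul_le_mul_of_nonneg_right _ (by positivity)
      linarith [le_abs_self K]
  apply le_antisymm (hle ⟨hA, hB, hC⟩)
  have h1 := hle (A := A) (B := B) (C := Cᶜ) ⟨hA, hB, hC.compl⟩
  rw [h.compl₃ hA hB hC, probReal_compl_eq_one_sub hC] at h1
  nlinarith

end Vale.Agent.P102
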