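import Mathlib

open MeasureTheory Filter Topology

namespace Vale.Agent.P102

variable {Ω : Type*} [MeasurableSpace Ω]

/-- `T` is mixing for `μ`: `μ (A ∩ T^{-n} B) → μ A * μ B` for all measurable `A`, `B`. -/
def Mixing (μ : Measure Ω) (T : Ω → Ω) : Prop :=
  ∀ A B : Set Ω, MeasurableSet A → MeasurableSet B →
    Tendsto (fun n : ℕ => μ.real (A ∩ T^[n] ⁻¹' B)) atTop (𝓝 (μ.real A * μ.real B))

/-- `T` is mixing of order three: `μ (A ∩ T^{-n} B ∩ T^{-(n+m)} C) → μ A * μ B * μ C`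
as both gaps `n`, `m` tend to infinity. -/
def MixingOrderThree (μ : Measure Ω) (T : Ω → Ω) : Prop :=
  ∀ A B C : Set Ω, MeasurableSet A → MeasurableSet B → MeasurableSet C →
    Tendsto (fun p : ℕ × ℕ => μ.real (A ∩ T^[p.1] ⁻¹' B ∩ T^[p.1 + p.2] ⁻¹' C))
      (atTop ×ˢ atTop) (𝓝 (μ.real A * μ.real B * μ.real C))

end Vale.Agent.P102
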