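import Vale.Agent.P102.Improve

open MeasureTheory Filter Topology

namespace Vale.Agent.P102

variable {Ω : Type*} [MeasurableSpace Ω]

theorem le_of_dominated {μ : Measure Ω} [IsProbabilityMeasure μ] {T : Ω → Ω}
    (hT : MeasurePreserving T μ μ) (hmix : Mixing μ T)
    {ν : Set Ω → Set Ω → Set Ω → ℝ} (hcs : HasCS T ν) (hnn : ∀ A B C, 0 ≤ ν A B C)
    (S : Set Ω → Set Ω → Set Ω → Prop)
    (hSm : ∀ {A B C}, S A B C → MeasurableSet A ∧ MeasurableSet B ∧ MeasurableSet C)
    (hSc : ∀ {A B C}, S A B C → ∀ i j : ℕ,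
      S (T^[i] ⁻¹' A ∩ T^[j] ⁻¹' A) (T^[i] ⁻¹' B ∩ T^[j] ⁻¹' B) (T^[i] ⁻¹' C ∩ T^[j] ⁻¹' C))
    {x : ℝ} (hx : 0 ≤ x)
    (hK : ∀ {A B C}, S A B C → ν A B C ≤ (1 + x) * (μ.real A * μ.real B * μ.real C))
    {A B C : Set Ω} (hS : S A B C) :
    ν A B C ≤ μ.real A * μ.real B * μ.real C := by
  have step : ∀ j : ℕ, ∀ {A B C : Set Ω}, S A B C →
      ν A B C ≤ (1 + x * (1 / 2) ^ j) * (μ.real A * μ.real B * μ.real C) := by
    intro j
    induction j with
    | zero => intro A B C hS; simpa using hK hS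
    | succ j ih =>
      intro A B C hS
      have hy : 0 ≤ x * (1 / 2) ^ j := by positivity
      have h1 := improve hT hmix hcs S hSm hSc (K := 1 + x * (1 / 2) ^ j) (by linarith) ih hS
      have hw : 0 ≤ μ.real A * μ.real B * μ.real C := by positivity
      have h2 : (ν A B C) ^ 2 ≤ ((1 + x * (1 / 2) ^ (j + 1)) * (μ.real A * μ.real B * μ.real C)) ^ 2 := by
        refine h1.trans ?_
        rw [mul_pow (1 + x * (1 / 2) ^ (j + 1))]
        apply mul_le_mul_of_nonneg_right _ (sq_nonneg _)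
        have e : x * (1 / 2 : ℝ) ^ (j + 1) = (x * (1 / 2) ^ j) / 2 := by
          rw [pow_succ]; ring
        rw [e]
        nlinarith [sq_nonneg (x * (1 / 2 : ℝ) ^ j)]
      exact (pow_le_pow_iff_left₀ (hnn A B C) (by positivity) two_ne_zero).mp h2
  have hlim : Tendsto (fun j : ℕ => (1 + x * (1 / 2 : ℝ) ^ j) * (μ.real A * μ.real B * μ.real C))
      atTop (𝓝 ((1 + x * 0) * (μ.real A * μ.real B * μ.real C))) := by
    apply Tendsto.mul_const
    apply Tendsto.const_add
    apply Tendsto.const_mul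
    exact tendsto_pow_atTop_nhds_zero_of_lt_one (by norm_num) (by norm_num)
  simp only [mul_zero, add_zero, one_mul] at hlim
  exact ge_of_tendsto' hlim (fun j => step j hS)

end Vale.Agent.P102
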