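import Vale.Agent.P102.PreJoining

open MeasureTheory Filter Topology

namespace Vale.Agent.P102

variable {Ω : Type*} [MeasurableSpace Ω]

def HasCS (T : Ω → Ω) (ν : Set Ω → Set Ω → Set Ω → ℝ) : Prop :=
  ∀ {A B C : Set Ω}, MeasurableSet A → MeasurableSet B → MeasurableSet C → ∀ s N : ℕ,
    ((N : ℝ) * ν A B C) ^ 2 ≤ ∑ k ∈ Finset.range N, ∑ l ∈ Finset.range N,
      ν (T^[k * s] ⁻¹' A ∩ T^[l * s] ⁻¹' A) (T^[k * s] ⁻¹' B ∩ T^[l * s] ⁻¹' B)
        (T^[k * s] ⁻¹' C ∩ T^[l * s] ⁻¹' C)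

theorem measureReal_inter_iterate {μ : Measure Ω} {T : Ω → Ω} (hT : MeasurePreserving T μ μ)
    {A : Set Ω} (hA : MeasurableSet A) {i j : ℕ} (hij : i ≤ j) :
    μ.real (T^[i] ⁻¹' A ∩ T^[j] ⁻¹' A) = μ.real (A ∩ T^[j - i] ⁻¹' A) := by
  have h1 : T^[i] ⁻¹' A ∩ T^[j] ⁻¹' A = T^[i] ⁻¹' (A ∩ T^[j - i] ⁻¹' A) := by
    rw [Set.preimage_inter, ← Set.preimage_comp, ← Function.iterate_add, Nat.sub_add_cancel hij]
  rw [h1]
  exact (hT.iterate i).measureReal_preimage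
    (hA.inter ((hT.iterate (j - i)).measurable hA)).nullMeasurableSet

theorem improve {μ : Measure Ω} [IsProbabilityMeasure μ] {T : Ω → Ω}
    (hT : MeasurePreserving T μ μ) (hmix : Mixing μ T)
    {ν : Set Ω → Set Ω → Set Ω → ℝ} (hcs : HasCS T ν)
    (S : Set Ω → Set Ω → Set Ω → Prop)
    (hSm : ∀ {A B C}, S A B C → MeasurableSet A ∧ MeasurableSet B ∧ MeasurableSet C)
    (hSc : ∀ {A B C}, S A B C → ∀ i j : ℕ,
      S (T^[i] ⁻¹' A ∩ T^[j] ⁻¹' A) (T^[i] ⁻¹' B ∩ T^[j] ⁻¹' B) (T^[i] ⁻¹' C ∩ T^[j] ⁻¹' C))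
    {K : ℝ} (hK0 : 0 ≤ K)
    (hK : ∀ {A B C}, S A B C → ν A B C ≤ K * (μ.real A * μ.real B * μ.real C))
    {A B C : Set Ω} (hS : S A B C) :
    (ν A B C) ^ 2 ≤ K * (μ.real A * μ.real B * μ.real C) ^ 2 := by
  obtain ⟨hA, hB, hC⟩ := hSm hS
  set w : ℝ := μ.real A * μ.real B * μ.real C with hw
  set g : ℕ → ℝ := fun j => μ.real (A ∩ T^[j] ⁻¹' A) * μ.real (B ∩ T^[j] ⁻¹' B)
    * μ.real (C ∩ T^[j] ⁻¹' C) with hg
  have hgt : Tendsto g atTop (𝓝 (w ^ 2)) := by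
    have := ((hmix A A hA hA).mul (hmix B B hB hB)).mul (hmix C C hC hC)
    have e : μ.real A * μ.real A * (μ.real B * μ.real B) * (μ.real C * μ.real C) = w ^ 2 := by
      rw [hw]; ring
    rw [e] at this
    exact this
  have hterm : ∀ i j : ℕ, i ≤ j →
      μ.real (T^[i] ⁻¹' A ∩ T^[j] ⁻¹' A) * μ.real (T^[i] ⁻¹' B ∩ T^[j] ⁻¹' B)
        * μ.real (T^[i] ⁻¹' C ∩ T^[j] ⁻¹' C) = g (j - i) := by
    intro i j hij
    rw [measureReal_inter_iterate hT hA hij, measureReal_inter_iterate hT hB hij,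
      measureReal_inter_iterate hT hC hij]
  have hterm' : ∀ i j : ℕ, j ≤ i →
      μ.real (T^[i] ⁻¹' A ∩ T^[j] ⁻¹' A) * μ.real (T^[i] ⁻¹' B ∩ T^[j] ⁻¹' B)
        * μ.real (T^[i] ⁻¹' C ∩ T^[j] ⁻¹' C) = g (i - j) := by
    intro i j hij
    rw [Set.inter_comm (T^[i] ⁻¹' A), Set.inter_comm (T^[i] ⁻¹' B), Set.inter_comm (T^[i] ⁻¹' C)]
    exact hterm j i hij
  have hg1 : ∀ j, g j ≤ 1 := by
    intro j
    have h1 : μ.real (A ∩ T^[j] ⁻¹' A) ≤ 1 := measureReal_le_one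
    have h2 : μ.real (B ∩ T^[j] ⁻¹' B) ≤ 1 := measureReal_le_one
    have h3 : μ.real (C ∩ T^[j] ⁻¹' C) ≤ 1 := measureReal_le_one
    have n1 : 0 ≤ μ.real (A ∩ T^[j] ⁻¹' A) := measureReal_nonneg
    have n2 : 0 ≤ μ.real (B ∩ T^[j] ⁻¹' B) := measureReal_nonneg
    have n3 : 0 ≤ μ.real (C ∩ T^[j] ⁻¹' C) := measureReal_nonneg
    calc g j ≤ 1 * 1 * 1 := by
          apply mul_le_mul (mul_le_mul h1 h2 n2 zero_le_one) h3 n3 (by norm_num)
      _ = 1 := by norm_num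
  have main : ∀ δ : ℝ, 0 < δ → ∀ N : ℕ, 0 < N →
      (ν A B C) ^ 2 ≤ K * (1 / N + w ^ 2 + δ) := by
    intro δ hδ N hN
    have hev : ∀ᶠ j in atTop, g j < w ^ 2 + δ := hgt.eventually (gt_mem_nhds (by linarith))
    obtain ⟨s0, hs0⟩ := eventually_atTop.mp hev
    have hx0 : 0 ≤ w ^ 2 + δ := by positivity
    have hbound : ∀ k l : ℕ,
        ν (T^[k * (s0 + 1)] ⁻¹' A ∩ T^[l * (s0 + 1)] ⁻¹' A)
          (T^[k * (s0 + 1)] ⁻¹' B ∩ T^[l * (s0 + 1)] ⁻¹' B)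
          (T^[k * (s0 + 1)] ⁻¹' C ∩ T^[l * (s0 + 1)] ⁻¹' C)
        ≤ K * ((if k = l then 1 else 0) + (w ^ 2 + δ)) := by
      intro k l
      refine (hK (hSc hS _ _)).trans (mul_le_mul_of_nonneg_left ?_ hK0)
      rcases lt_trichotomy k l with hkl | hkl | hkl
      · rw [hterm _ _ (Nat.mul_le_mul_right _ hkl.le), if_neg hkl.ne, zero_add]
        apply (hs0 _ _).le
        rw [← Nat.sub_mul]
        have : 1 ≤ l - k := by omega
        calc s0 ≤ 1 * (s0 + 1) := by omega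
          _ ≤ (l - k) * (s0 + 1) := Nat.mul_le_mul_right _ this
      · subst hkl
        rw [hterm _ _ le_rfl, if_pos rfl]
        linarith [hg1 (k * (s0 + 1) - k * (s0 + 1))]
      · rw [hterm' _ _ (Nat.mul_le_mul_right _ hkl.le), if_neg hkl.ne', zero_add]
        apply (hs0 _ _).le
        rw [← Nat.sub_mul]
        have : 1 ≤ k - l := by omega
        calc s0 ≤ 1 * (s0 + 1) := by omega
          _ ≤ (k - l) * (s0 + 1) := Nat.mul_le_mul_right _ this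
    have hsum := (hcs hA hB hC (s0 + 1) N).trans
      (Finset.sum_le_sum (fun k _ => Finset.sum_le_sum (fun l _ => hbound k l)))
    have hcalc : ∑ k ∈ Finset.range N, ∑ l ∈ Finset.range N,
        K * ((if k = l then (1 : ℝ) else 0) + (w ^ 2 + δ))
        = K * (N + (N : ℝ) ^ 2 * (w ^ 2 + δ)) := by
      have h1 : ∀ k ∈ Finset.range N, ∑ l ∈ Finset.range N,
          K * ((if k = l then (1 : ℝ) else 0) + (w ^ 2 + δ)) = K * (1 + N * (w ^ 2 + δ)) := by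
        intro k hk
        rw [← Finset.mul_sum, Finset.sum_add_distrib, Finset.sum_ite_eq, if_pos hk,
          Finset.sum_const, Finset.card_range, nsmul_eq_mul]
      rw [Finset.sum_congr rfl h1, Finset.sum_const, Finset.card_range, nsmul_eq_mul]
      ring
    rw [hcalc] at hsum
    have hNpos : (0 : ℝ) < N := by exact_mod_cast hN
    have : (N : ℝ) ^ 2 * (ν A B C) ^ 2 ≤ (N : ℝ) ^ 2 * (K * (1 / N + w ^ 2 + δ)) := by
      calc (N : ℝ) ^ 2 * (ν A B C) ^ 2 = ((N : ℝ) * ν A B C) ^ 2 := by ring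
        _ ≤ K * (N + (N : ℝ) ^ 2 * (w ^ 2 + δ)) := hsum
        _ = (N : ℝ) ^ 2 * (K * (1 / N + w ^ 2 + δ)) := by
          field_simp
          ring
    exact le_of_mul_le_mul_left this (by positivity)
  apply le_of_forall_pos_le_add
  intro ε hε
  have hK1 : 0 < K + 1 := by linarith
  obtain ⟨n, hn⟩ := exists_nat_one_div_lt (div_pos hε (mul_pos two_pos hK1))
  have h1 := main (ε / (2 * (K + 1))) (div_pos hε (mul_pos two_pos hK1)) (n + 1) (Nat.succ_pos n)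
  push_cast at h1
  have h2 : K * (1 / ((n : ℝ) + 1) + w ^ 2 + ε / (2 * (K + 1)))
      ≤ K * (ε / (2 * (K + 1)) + w ^ 2 + ε / (2 * (K + 1))) := by
    apply mul_le_mul_of_nonneg_left _ hK0
    linarith
  have h3 : K * (ε / (2 * (K + 1)) + w ^ 2 + ε / (2 * (K + 1))) = K * w ^ 2 + K / (K + 1) * ε := by
    field_simp
    ring
  have h4 : K / (K + 1) * ε ≤ ε := by
    have : K / (K + 1) ≤ 1 := by
      rw [div_le_one hK1]; linarith
    nlinarith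
  linarith

end Vale.Agent.P102
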