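import Mathlib

open MeasureTheory Filter Topology

namespace Vale.Agent.P102

variable {Ω : Type*} [MeasurableSpace Ω]

theorem sq_sum_measureReal_le (μ : Measure Ω) [IsProbabilityMeasure μ] (N : ℕ) (E : ℕ → Set Ω)
    (hE : ∀ k, MeasurableSet (E k)) :
    (∑ k ∈ Finset.range N, μ.real (E k)) ^ 2
      ≤ ∑ k ∈ Finset.range N, ∑ l ∈ Finset.range N, μ.real (E k ∩ E l) := by
  set f : Ω → ℝ := fun ω => ∑ k ∈ Finset.range N, (E k).indicator (1 : Ω → ℝ) ω with hf
  have hint1 : ∀ k, Integrable ((E k).indicator (1 : Ω → ℝ)) μ := fun k =>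
    (integrable_const (1 : ℝ)).indicator (hE k)
  have hintf : Integrable f μ := integrable_finsetSum _ (fun k _ => hint1 k)
  have hf1 : ∫ ω, f ω ∂μ = ∑ k ∈ Finset.range N, μ.real (E k) := by
    rw [hf, integral_finsetSum _ (fun k _ => hint1 k)]
    exact Finset.sum_congr rfl (fun k _ => integral_indicator_one (hE k))
  have hsq : ∀ ω, f ω ^ 2 = ∑ k ∈ Finset.range N, ∑ l ∈ Finset.range N,
      (E k ∩ E l).indicator (1 : Ω → ℝ) ω := by
    intro ω
    rw [hf, sq, Finset.sum_mul_sum]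
    apply Finset.sum_congr rfl
    intro k _
    apply Finset.sum_congr rfl
    intro l _
    have := Set.inter_indicator_mul (s := E k) (t := E l) (fun _ => (1 : ℝ)) (fun _ => (1 : ℝ)) ω
    simp only [mul_one] at this
    exact this.symm
  have hint2 : ∀ k l, Integrable ((E k ∩ E l).indicator (1 : Ω → ℝ)) μ := fun k l =>
    (integrable_const (1 : ℝ)).indicator ((hE k).inter (hE l))
  have hintsq : Integrable (fun ω => f ω ^ 2) μ := by
    simp_rw [hsq]
    exact integrable_finsetSum _ (fun k _ => integrable_finsetSum _ (fun l _ => hint2 k l))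
  have hf2 : ∫ ω, f ω ^ 2 ∂μ = ∑ k ∈ Finset.range N, ∑ l ∈ Finset.range N, μ.real (E k ∩ E l) := by
    simp_rw [hsq]
    rw [integral_finsetSum _ (fun k _ => integrable_finsetSum _ (fun l _ => hint2 k l))]
    apply Finset.sum_congr rfl
    intro k _
    rw [integral_finsetSum _ (fun l _ => hint2 k l)]
    exact Finset.sum_congr rfl (fun l _ => integral_indicator_one ((hE k).inter (hE l)))
  set c : ℝ := ∫ ω, f ω ∂μ with hc
  have hnn : 0 ≤ ∫ ω, (f ω - c) ^ 2 ∂μ := integral_nonneg (fun ω => sq_nonneg _)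
  have hexp : ∫ ω, (f ω - c) ^ 2 ∂μ = ∫ ω, f ω ^ 2 ∂μ - c ^ 2 := by
    have h1 : ∀ ω, (f ω - c) ^ 2 = f ω ^ 2 - 2 * c * f ω + c ^ 2 := fun ω => by ring
    simp_rw [h1]
    have e1 : ∫ ω, (f ω ^ 2 - 2 * c * f ω + c ^ 2) ∂μ
        = ∫ ω, (f ω ^ 2 - 2 * c * f ω) ∂μ + ∫ _ω, c ^ 2 ∂μ :=
      integral_add (hintsq.sub (hintf.const_mul (2 * c))) (integrable_const _)
    have e2 : ∫ ω, (f ω ^ 2 - 2 * c * f ω) ∂μ = ∫ ω, f ω ^ 2 ∂μ - ∫ ω, 2 * c * f ω ∂μ :=
      integral_sub hintsq (hintf.const_mul (2 * c))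
    rw [e1, e2, integral_const_mul, integral_const]
    simp only [probReal_univ, smul_eq_mul, one_mul]
    rw [← hc]
    ring
  rw [← hf1, ← hf2]
  linarith

end Vale.Agent.P102
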