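import Vale.Agent.P102.Assemble
import Vale.Agent.P102.SecondMoment

open MeasureTheory Filter Topology

namespace Vale.Agent.P102

variable {Ω : Type*} [MeasurableSpace Ω]

noncomputable def corr (μ : Measure Ω) (T : Ω → Ω) (A B C : Set Ω) (p : ℕ × ℕ) : ℝ :=
  μ.real (A ∩ T^[p.1] ⁻¹' B ∩ T^[p.1 + p.2] ⁻¹' C)

theorem exists_lim_corr (μ : Measure Ω) [IsProbabilityMeasure μ] (T : Ω → Ω)
    (U : Ultrafilter (ℕ × ℕ)) (A B C : Set Ω) :
    ∃ x : ℝ, Tendsto (corr μ T A B C) U (𝓝 x) := by
  obtain ⟨x, -, hx⟩ := (isCompact_Icc (a := (0 : ℝ)) (b := 1)).ultrafilter_le_nhds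
    (U.map (corr μ T A B C)) (by
      rw [Filter.le_principal_iff]
      apply Filter.mem_map.mpr
      convert Filter.univ_mem
      ext p
      simp only [Set.mem_preimage, Set.mem_Icc, Set.mem_univ, iff_true]
      exact ⟨measureReal_nonneg, measureReal_le_one⟩)
  exact ⟨x, hx⟩

noncomputable def limCorr (μ : Measure Ω) [IsProbabilityMeasure μ] (T : Ω → Ω)
    (U : Ultrafilter (ℕ × ℕ)) (A B C : Set Ω) : ℝ :=
  Classical.choose (exists_lim_corr μ T U A B C)

theorem tendsto_limCorr (μ : Measure Ω) [IsProbabilityMeasure μ] (T : Ω → Ω)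
    (U : Ultrafilter (ℕ × ℕ)) (A B C : Set Ω) :
    Tendsto (corr μ T A B C) U (𝓝 (limCorr μ T U A B C)) :=
  Classical.choose_spec (exists_lim_corr μ T U A B C)

theorem isPreJoining_limCorr {μ : Measure Ω} [IsProbabilityMeasure μ] {T : Ω → Ω}
    (hT : MeasurePreserving T μ μ) (hmix : Mixing μ T)
    (U : Ultrafilter (ℕ × ℕ)) (hU : (U : Filter (ℕ × ℕ)) ≤ atTop ×ˢ atTop) :
    IsPreJoining μ (limCorr μ T U) where
  nonneg A B C := ge_of_tendsto' (tendsto_limCorr μ T U A B C) (fun _ => measureReal_nonneg)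
  add₁ := by
    intro A A' B C hA hA' hB hC hd
    refine tendsto_nhds_unique (tendsto_limCorr μ T U (A ∪ A') B C) ?_
    have := (tendsto_limCorr μ T U A B C).add (tendsto_limCorr μ T U A' B C)
    refine this.congr (fun p => ?_)
    have hm : ∀ n, Measurable (T^[n]) := fun n => (hT.iterate n).measurable
    simp only [corr]
    rw [Set.union_inter_distrib_right, Set.union_inter_distrib_right]
    refine (measureReal_union ?_ ((hA'.inter (hm _ hB)).inter (hm _ hC))).symm
    exact hd.mono (Set.inter_subset_left.trans Set.inter_subset_left)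
      (Set.inter_subset_left.trans Set.inter_subset_left)
  add₂ := by
    intro A B B' C hA hB hB' hC hd
    refine tendsto_nhds_unique (tendsto_limCorr μ T U A (B ∪ B') C) ?_
    have := (tendsto_limCorr μ T U A B C).add (tendsto_limCorr μ T U A B' C)
    refine this.congr (fun p => ?_)
    have hm : ∀ n, Measurable (T^[n]) := fun n => (hT.iterate n).measurable
    simp only [corr]
    rw [Set.preimage_union, Set.inter_union_distrib_left, Set.union_inter_distrib_right]
    refine (measureReal_union ?_ ((hA.inter (hm _ hB')).inter (hm _ hC))).symm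
    exact (hd.preimage _).mono (Set.inter_subset_left.trans Set.inter_subset_right)
      (Set.inter_subset_left.trans Set.inter_subset_right)
  add₃ := by
    intro A B C C' hA hB hC hC' hd
    refine tendsto_nhds_unique (tendsto_limCorr μ T U A B (C ∪ C')) ?_
    have := (tendsto_limCorr μ T U A B C).add (tendsto_limCorr μ T U A B C')
    refine this.congr (fun p => ?_)
    have hm : ∀ n, Measurable (T^[n]) := fun n => (hT.iterate n).measurable
    simp only [corr]
    rw [Set.preimage_union, Set.inter_union_distrib_left]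
    refine (measureReal_union ?_ ((hA.inter (hm _ hB)).inter (hm _ hC'))).symm
    exact (hd.preimage _).mono Set.inter_subset_right Set.inter_subset_right
  marg₁ := by
    intro B C hB hC
    refine tendsto_nhds_unique (tendsto_limCorr μ T U Set.univ B C) ?_
    have h1 : Tendsto (fun p : ℕ × ℕ => μ.real (B ∩ T^[p.2] ⁻¹' C)) (atTop ×ˢ atTop)
        (𝓝 (μ.real B * μ.real C)) := (hmix B C hB hC).comp tendsto_snd
    refine (h1.mono_left hU).congr (fun p => ?_)
    simp only [corr, Set.univ_inter]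
    have e : T^[p.1] ⁻¹' B ∩ T^[p.1 + p.2] ⁻¹' C = T^[p.1] ⁻¹' (B ∩ T^[p.2] ⁻¹' C) := by
      rw [Set.preimage_inter, ← Set.preimage_comp, ← Function.iterate_add, Nat.add_comm]
    rw [e]
    exact ((hT.iterate p.1).measureReal_preimage
      (hB.inter ((hT.iterate p.2).measurable hC)).nullMeasurableSet).symm
  marg₂ := by
    intro A C hA hC
    refine tendsto_nhds_unique (tendsto_limCorr μ T U A Set.univ C) ?_
    have h0 : Tendsto (fun p : ℕ × ℕ => p.1 + p.2) (atTop ×ˢ atTop) atTop :=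
      tendsto_fst.atTop_add_atTop tendsto_snd
    have h1 : Tendsto (fun p : ℕ × ℕ => μ.real (A ∩ T^[p.1 + p.2] ⁻¹' C)) (atTop ×ˢ atTop)
        (𝓝 (μ.real A * μ.real C)) := (hmix A C hA hC).comp h0
    refine (h1.mono_left hU).congr (fun p => ?_)
    simp only [corr, Set.preimage_univ, Set.inter_univ]
  marg₃ := by
    intro A B hA hB
    refine tendsto_nhds_unique (tendsto_limCorr μ T U A B Set.univ) ?_
    have h1 : Tendsto (fun p : ℕ × ℕ => μ.real (A ∩ T^[p.1] ⁻¹' B)) (atTop ×ˢ atTop)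
        (𝓝 (μ.real A * μ.real B)) := (hmix A B hA hB).comp tendsto_fst
    refine (h1.mono_left hU).congr (fun p => ?_)
    simp only [corr, Set.preimage_univ, Set.inter_univ]

theorem hasCS_limCorr {μ : Measure Ω} [IsProbabilityMeasure μ] {T : Ω → Ω}
    (hT : MeasurePreserving T μ μ) (U : Ultrafilter (ℕ × ℕ)) : HasCS T (limCorr μ T U) := by
  intro A B C hA hB hC s N
  have hm : ∀ n, Measurable (T^[n]) := fun n => (hT.iterate n).measurable
  have hL : Tendsto (fun p => ((N : ℝ) * corr μ T A B C p) ^ 2) U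
      (𝓝 (((N : ℝ) * limCorr μ T U A B C) ^ 2)) :=
    ((tendsto_limCorr μ T U A B C).const_mul _).pow 2
  have hR : Tendsto (fun p => ∑ k ∈ Finset.range N, ∑ l ∈ Finset.range N,
      corr μ T (T^[k * s] ⁻¹' A ∩ T^[l * s] ⁻¹' A) (T^[k * s] ⁻¹' B ∩ T^[l * s] ⁻¹' B)
        (T^[k * s] ⁻¹' C ∩ T^[l * s] ⁻¹' C) p) U
      (𝓝 (∑ k ∈ Finset.range N, ∑ l ∈ Finset.range N,
      limCorr μ T U (T^[k * s] ⁻¹' A ∩ T^[l * s] ⁻¹' A) (T^[k * s] ⁻¹' B ∩ T^[l * s] ⁻¹' B)
        (T^[k * s] ⁻¹' C ∩ T^[l * s] ⁻¹' C))) :=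
    tendsto_finsetSum _ (fun k _ => tendsto_finsetSum _ (fun l _ => tendsto_limCorr μ T U _ _ _))
  refine le_of_tendsto_of_tendsto' hL hR (fun p => ?_)
  set E : Set Ω := A ∩ T^[p.1] ⁻¹' B ∩ T^[p.1 + p.2] ⁻¹' C with hE
  have hEm : MeasurableSet E := (hA.inter (hm _ hB)).inter (hm _ hC)
  have h1 := sq_sum_measureReal_le μ N (fun k => T^[k * s] ⁻¹' E) (fun k => hm _ hEm)
  have h2 : ∑ k ∈ Finset.range N, μ.real (T^[k * s] ⁻¹' E) = (N : ℝ) * corr μ T A B C p := by
    rw [Finset.sum_congr rfl (fun k _ =>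
      (hT.iterate (k * s)).measureReal_preimage hEm.nullMeasurableSet),
      Finset.sum_const, Finset.card_range, nsmul_eq_mul]
    rfl
  rw [h2] at h1
  refine h1.trans (le_of_eq ?_)
  apply Finset.sum_congr rfl
  intro k _
  apply Finset.sum_congr rfl
  intro l _
  simp only [corr]
  congr 1
  ext ω
  simp only [hE, Set.mem_inter_iff, Set.mem_preimage, ← Function.iterate_add_apply]
  rw [Nat.add_comm p.1 (k * s), Nat.add_comm p.1 (l * s), Nat.add_comm (p.1 + p.2) (k * s),
    Nat.add_comm (p.1 + p.2) (l * s)]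
  tauto

end Vale.Agent.P102
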