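import Vale.Agent.P102.PreJoining

open MeasureTheory Filter Topology

namespace Vale.Agent.P102

variable {Ω : Type*} [MeasurableSpace Ω]

namespace IsPreJoining

variable {μ : Measure Ω} {ν : Set Ω → Set Ω → Set Ω → ℝ}

theorem measurableSet_U {ι : Type*} {X : ι → Set Ω} (hX : ∀ i, MeasurableSet (X i))
    (S : Finset ι) : MeasurableSet (⋃ i ∈ S, X i) :=
  Finset.measurableSet_biUnion S (fun i _ => hX i)

omit [MeasurableSpace Ω] in
theorem disjoint_U {ι : Type*} {X : ι → Set Ω} (hd : Pairwise (Function.onFun Disjoint X))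
    {a : ι} {S : Finset ι} (ha : a ∉ S) : Disjoint (X a) (⋃ i ∈ S, X i) := by
  rw [Set.disjoint_iUnion₂_right]
  intro i hi
  exact hd (fun h => ha (h ▸ hi))

theorem sum₁ (h : IsPreJoining μ ν) {ι : Type*} {X : ι → Set Ω} (hX : ∀ i, MeasurableSet (X i))
    (hd : Pairwise (Function.onFun Disjoint X)) (S : Finset ι) {B C : Set Ω}
    (hB : MeasurableSet B) (hC : MeasurableSet C) :
    ν (⋃ i ∈ S, X i) B C = ∑ i ∈ S, ν (X i) B C := by
  classical
  induction S using Finset.induction_on with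
  | empty => simpa using h.empty₁ hB hC
  | insert a S ha ih =>
    rw [Finset.set_biUnion_insert, h.add₁ (hX a) (measurableSet_U hX S) hB hC (disjoint_U hd ha),
      ih, Finset.sum_insert ha]

theorem sum₂ (h : IsPreJoining μ ν) {ι : Type*} {X : ι → Set Ω} (hX : ∀ i, MeasurableSet (X i))
    (hd : Pairwise (Function.onFun Disjoint X)) (S : Finset ι) {A C : Set Ω}
    (hA : MeasurableSet A) (hC : MeasurableSet C) :
    ν A (⋃ i ∈ S, X i) C = ∑ i ∈ S, ν A (X i) C := by
  classical
  induction S using Finset.induction_on with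
  | empty => simpa using h.empty₂ hA hC
  | insert a S ha ih =>
    rw [Finset.set_biUnion_insert, h.add₂ hA (hX a) (measurableSet_U hX S) hC (disjoint_U hd ha),
      ih, Finset.sum_insert ha]

theorem sum₃ (h : IsPreJoining μ ν) {ι : Type*} {X : ι → Set Ω} (hX : ∀ i, MeasurableSet (X i))
    (hd : Pairwise (Function.onFun Disjoint X)) (S : Finset ι) {A B : Set Ω}
    (hA : MeasurableSet A) (hB : MeasurableSet B) :
    ν A B (⋃ i ∈ S, X i) = ∑ i ∈ S, ν A B (X i) := by
  classical
  induction S using Finset.induction_on with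
  | empty => simpa using h.empty₃ hA hB
  | insert a S ha ih =>
    rw [Finset.set_biUnion_insert, h.add₃ hA hB (hX a) (measurableSet_U hX S) (disjoint_U hd ha),
      ih, Finset.sum_insert ha]

theorem sum_all (h : IsPreJoining μ ν) {ι : Type*} {X : ι → Set Ω} (hX : ∀ i, MeasurableSet (X i))
    (hd : Pairwise (Function.onFun Disjoint X)) (S S' S'' : Finset ι) :
    ν (⋃ i ∈ S, X i) (⋃ i ∈ S', X i) (⋃ i ∈ S'', X i)
      = ∑ i ∈ S, ∑ j ∈ S', ∑ k ∈ S'', ν (X i) (X j) (X k) := by
  rw [h.sum₁ hX hd S (measurableSet_U hX S') (measurableSet_U hX S'')]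
  apply Finset.sum_congr rfl
  intro i _
  rw [h.sum₂ hX hd S' (hX i) (measurableSet_U hX S'')]
  apply Finset.sum_congr rfl
  intro j _
  rw [h.sum₃ hX hd S'' (hX i) (hX j)]

theorem measureReal_U [IsFiniteMeasure μ] {ι : Type*} {X : ι → Set Ω}
    (hX : ∀ i, MeasurableSet (X i))
    (hd : Pairwise (Function.onFun Disjoint X)) (S : Finset ι) :
    μ.real (⋃ i ∈ S, X i) = ∑ i ∈ S, μ.real (X i) :=
  measureReal_biUnion_finset (fun i _ j _ hij => hd hij) (fun i _ => hX i)

/-- polarisation of the diagonal identity -/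
theorem sum_perm_eq [IsProbabilityMeasure μ] (h : IsPreJoining μ ν)
    (hdiag : ∀ A, MeasurableSet A → ν A A A = μ.real A ^ 3) {P Q R : Set Ω}
    (hP : MeasurableSet P) (hQ : MeasurableSet Q) (hR : MeasurableSet R)
    (hPQ : Disjoint P Q) (hPR : Disjoint P R) (hQR : Disjoint Q R) :
    ν P Q R + ν P R Q + ν Q P R + ν Q R P + ν R P Q + ν R Q P
      = 6 * (μ.real P * μ.real Q * μ.real R) := by
  let X : Fin 3 → Set Ω := ![P, Q, R]
  have hX : ∀ i, MeasurableSet (X i) := by
    intro i; fin_cases i <;> simp [X, hP, hQ, hR]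
  have hd : Pairwise (Function.onFun Disjoint X) := by
    intro i j hij
    fin_cases i <;> fin_cases j <;>
      simp_all [X, Function.onFun, hPQ.symm, hPR.symm, hQR.symm]
  have key : ∀ S : Finset (Fin 3), ∑ i ∈ S, ∑ j ∈ S, ∑ k ∈ S, ν (X i) (X j) (X k)
      = (∑ i ∈ S, μ.real (X i)) ^ 3 := by
    intro S
    rw [← h.sum_all hX hd S S S, hdiag _ (measurableSet_U hX S), measureReal_U hX hd S]
  have k012 := key {0, 1, 2}
  have k01 := key {0, 1}
  have k02 := key {0, 2}
  have k12 := key {1, 2}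
  have k0 := key {0}
  have k1 := key {1}
  have k2 := key {2}
  simp [X, Finset.sum_insert] at k012 k01 k02 k12 k0 k1 k2
  nlinarith [k012, k01, k02, k12, k0, k1, k2]

end IsPreJoining

end Vale.Agent.P102
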