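import Vale.Agent.P102.Defs

open MeasureTheory Filter Topology

namespace Vale.Agent.P102

variable {Ω : Type*} [MeasurableSpace Ω]

structure IsPreJoining (μ : Measure Ω) (ν : Set Ω → Set Ω → Set Ω → ℝ) : Prop where
  nonneg : ∀ A B C, 0 ≤ ν A B C
  add₁ : ∀ {A A' B C}, MeasurableSet A → MeasurableSet A' → MeasurableSet B → MeasurableSet C →
    Disjoint A A' → ν (A ∪ A') B C = ν A B C + ν A' B C
  add₂ : ∀ {A B B' C}, MeasurableSet A → MeasurableSet B → MeasurableSet B' → MeasurableSet C →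
    Disjoint B B' → ν A (B ∪ B') C = ν A B C + ν A B' C
  add₃ : ∀ {A B C C'}, MeasurableSet A → MeasurableSet B → MeasurableSet C → MeasurableSet C' →
    Disjoint C C' → ν A B (C ∪ C') = ν A B C + ν A B C'
  marg₁ : ∀ {B C}, MeasurableSet B → MeasurableSet C → ν Set.univ B C = μ.real B * μ.real C
  marg₂ : ∀ {A C}, MeasurableSet A → MeasurableSet C → ν A Set.univ C = μ.real A * μ.real C
  marg₃ : ∀ {A B}, MeasurableSet A → MeasurableSet B → ν A B Set.univ = μ.real A * μ.real B

namespace IsPreJoining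

variable {μ : Measure Ω} {ν : Set Ω → Set Ω → Set Ω → ℝ}

theorem swap₂₃ (h : IsPreJoining μ ν) : IsPreJoining μ (fun A B C => ν A C B) where
  nonneg A B C := h.nonneg A C B
  add₁ hA hA' hB hC hd := h.add₁ hA hA' hC hB hd
  add₂ hA hB hB' hC hd := h.add₃ hA hC hB hB' hd
  add₃ hA hB hC hC' hd := h.add₂ hA hC hC' hB hd
  marg₁ hB hC := by rw [h.marg₁ hC hB, mul_comm]
  marg₂ hA hC := h.marg₃ hA hC
  marg₃ hA hB := h.marg₂ hA hB

theorem rot (h : IsPreJoining μ ν) : IsPreJoining μ (fun A B C => ν C A B) where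
  nonneg A B C := h.nonneg C A B
  add₁ hA hA' hB hC hd := h.add₂ hC hA hA' hB hd
  add₂ hA hB hB' hC hd := h.add₃ hC hA hB hB' hd
  add₃ hA hB hC hC' hd := h.add₁ hC hC' hA hB hd
  marg₁ hB hC := by rw [h.marg₂ hC hB, mul_comm]
  marg₂ hA hC := by rw [h.marg₃ hC hA, mul_comm]
  marg₃ hA hB := h.marg₁ hA hB

theorem compl₁ (h : IsPreJoining μ ν) {A B C : Set Ω} (hA : MeasurableSet A)
    (hB : MeasurableSet B) (hC : MeasurableSet C) :
    ν Aᶜ B C = μ.real B * μ.real C - ν A B C := by
  have := h.add₁ hA hA.compl hB hC disjoint_compl_right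
  rw [Set.union_compl_self, h.marg₁ hB hC] at this
  linarith

theorem compl₂ (h : IsPreJoining μ ν) {A B C : Set Ω} (hA : MeasurableSet A)
    (hB : MeasurableSet B) (hC : MeasurableSet C) :
    ν A Bᶜ C = μ.real A * μ.real C - ν A B C := by
  have := h.add₂ hA hB hB.compl hC disjoint_compl_right
  rw [Set.union_compl_self, h.marg₂ hA hC] at this
  linarith

theorem compl₃ (h : IsPreJoining μ ν) {A B C : Set Ω} (hA : MeasurableSet A)
    (hB : MeasurableSet B) (hC : MeasurableSet C) :
    ν A B Cᶜ = μ.real A * μ.real B - ν A B C := by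
  have := h.add₃ hA hB hC hC.compl disjoint_compl_right
  rw [Set.union_compl_self, h.marg₃ hA hB] at this
  linarith

theorem le_marg₃ (h : IsPreJoining μ ν) {A B C : Set Ω} (hA : MeasurableSet A)
    (hB : MeasurableSet B) (hC : MeasurableSet C) : ν A B C ≤ μ.real A * μ.real B := by
  have := h.compl₃ hA hB hC
  have := h.nonneg A B Cᶜ
  linarith

theorem le_marg₂ (h : IsPreJoining μ ν) {A B C : Set Ω} (hA : MeasurableSet A)
    (hB : MeasurableSet B) (hC : MeasurableSet C) : ν A B C ≤ μ.real A * μ.real C := by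
  have := h.compl₂ hA hB hC
  have := h.nonneg A Bᶜ C
  linarith

theorem le_marg₁ (h : IsPreJoining μ ν) {A B C : Set Ω} (hA : MeasurableSet A)
    (hB : MeasurableSet B) (hC : MeasurableSet C) : ν A B C ≤ μ.real B * μ.real C := by
  have := h.compl₁ hA hB hC
  have := h.nonneg Aᶜ B C
  linarith

theorem empty₁ (h : IsPreJoining μ ν) {B C : Set Ω}
    (hB : MeasurableSet B) (hC : MeasurableSet C) : ν ∅ B C = 0 := by
  have h1 := h.le_marg₃ MeasurableSet.empty hB hC
  have h2 := h.nonneg ∅ B C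
  simp only [measureReal_empty, zero_mul] at h1
  linarith

theorem empty₂ (h : IsPreJoining μ ν) {A C : Set Ω}
    (hA : MeasurableSet A) (hC : MeasurableSet C) : ν A ∅ C = 0 := by
  have h1 := h.le_marg₃ hA MeasurableSet.empty hC
  have h2 := h.nonneg A ∅ C
  simp only [measureReal_empty, mul_zero] at h1
  linarith

theorem empty₃ (h : IsPreJoining μ ν) {A B : Set Ω}
    (hA : MeasurableSet A) (hB : MeasurableSet B) : ν A B ∅ = 0 := by
  have h1 := h.le_marg₂ hA hB MeasurableSet.empty
  have h2 := h.nonneg A B ∅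
  simp only [measureReal_empty, mul_zero] at h1
  linarith

/-- the diagonal inequality for all sets upgrades to an equality -/
theorem diag_eq [IsProbabilityMeasure μ] (h : IsPreJoining μ ν)
    (hdiag : ∀ A, MeasurableSet A → ν A A A ≤ μ.real A ^ 3) {A : Set Ω} (hA : MeasurableSet A) :
    ν A A A = μ.real A ^ 3 := by
  apply le_antisymm (hdiag A hA)
  have h1 := hdiag Aᶜ hA.compl
  rw [h.compl₁ hA hA.compl hA.compl, h.compl₂ hA hA hA.compl, h.compl₃ hA hA hA,
    probReal_compl_eq_one_sub hA] at h1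
  nlinarith

end IsPreJoining

end Vale.Agent.P102
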