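import Vale.Agent.P102.Dominated
import Vale.Agent.P102.Polar

open MeasureTheory Filter Topology

namespace Vale.Agent.P102

variable {Ω : Type*} [MeasurableSpace Ω]

def DisjTriple (A B C : Set Ω) : Prop :=
  MeasurableSet A ∧ MeasurableSet B ∧ MeasurableSet C ∧ Disjoint A B ∧ Disjoint A C ∧ Disjoint B C

omit [MeasurableSpace Ω] in
theorem disjoint_preimage_inter {T : Ω → Ω} {A B : Set Ω} (h : Disjoint A B) (i j : ℕ) :
    Disjoint (T^[i] ⁻¹' A ∩ T^[j] ⁻¹' A) (T^[i] ⁻¹' B ∩ T^[j] ⁻¹' B) :=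
  (h.preimage (T^[i])).mono Set.inter_subset_left Set.inter_subset_left

theorem eq_prod_of_disjoint {μ : Measure Ω} [IsProbabilityMeasure μ] {T : Ω → Ω}
    (hT : MeasurePreserving T μ μ) (hmix : Mixing μ T)
    {ν : Set Ω → Set Ω → Set Ω → ℝ} (h : IsPreJoining μ ν) (hcs : HasCS T ν)
    (hdiag : ∀ A, MeasurableSet A → ν A A A = μ.real A ^ 3)
    {P Q R : Set Ω} (hD : DisjTriple P Q R) :
    ν P Q R = μ.real P * μ.real Q * μ.real R := by
  have hle : ∀ {A B C : Set Ω}, DisjTriple A B C → ν A B C ≤ μ.real A * μ.real B * μ.real C := by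
    intro A B C hS
    refine le_of_dominated hT hmix hcs h.nonneg DisjTriple (fun hS => ⟨hS.1, hS.2.1, hS.2.2.1⟩)
      ?_ (x := 5) (by norm_num) ?_ hS
    · intro A B C hS i j
      obtain ⟨hA, hB, hC, hAB, hAC, hBC⟩ := hS
      have hm : ∀ n, Measurable (T^[n]) := fun n => (hT.iterate n).measurable
      exact ⟨(hm i hA).inter (hm j hA), (hm i hB).inter (hm j hB), (hm i hC).inter (hm j hC),
        disjoint_preimage_inter hAB i j, disjoint_preimage_inter hAC i j,
        disjoint_preimage_inter hBC i j⟩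
    · intro A B C hS
      obtain ⟨hA, hB, hC, hAB, hAC, hBC⟩ := hS
      have := h.sum_perm_eq hdiag hA hB hC hAB hAC hBC
      have n1 := h.nonneg A C B
      have n2 := h.nonneg B A C
      have n3 := h.nonneg B C A
      have n4 := h.nonneg C A B
      have n5 := h.nonneg C B A
      linarith
  obtain ⟨hP, hQ, hR, hPQ, hPR, hQR⟩ := hD
  have hsum := h.sum_perm_eq hdiag hP hQ hR hPQ hPR hQR
  have l1 := hle (A := P) (B := Q) (C := R) ⟨hP, hQ, hR, hPQ, hPR, hQR⟩
  have l2 := hle (A := P) (B := R) (C := Q) ⟨hP, hR, hQ, hPR, hPQ, hQR.symm⟩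
  have l3 := hle (A := Q) (B := P) (C := R) ⟨hQ, hP, hR, hPQ.symm, hQR, hPR⟩
  have l4 := hle (A := Q) (B := R) (C := P) ⟨hQ, hR, hP, hQR, hPQ.symm, hPR.symm⟩
  have l5 := hle (A := R) (B := P) (C := Q) ⟨hR, hP, hQ, hPR.symm, hQR.symm, hPQ⟩
  have l6 := hle (A := R) (B := Q) (C := P) ⟨hR, hQ, hP, hQR.symm, hPR.symm, hPQ.symm⟩
  linarith

/-- the `(P, P, Q)` case -/
theorem eq_prod_PPQ {μ : Measure Ω} [IsProbabilityMeasure μ] {T : Ω → Ω}
    (hT : MeasurePreserving T μ μ) (hmix : Mixing μ T)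
    {ν : Set Ω → Set Ω → Set Ω → ℝ} (h : IsPreJoining μ ν)
    (hdisj : ∀ {A B C : Set Ω}, DisjTriple A B C → ν A B C = μ.real A * μ.real B * μ.real C)
    {P Q : Set Ω} (hP : MeasurableSet P) (hQ : MeasurableSet Q) (hPQ : Disjoint P Q) :
    ν P P Q = μ.real P * μ.real P * μ.real Q := by
  have hp0 : 0 ≤ μ.real P := measureReal_nonneg
  have hp1 : μ.real P ≤ 1 := measureReal_le_one
  have hq0 : 0 ≤ μ.real Q := measureReal_nonneg
  have hq1 : μ.real Q ≤ 1 := measureReal_le_one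
  rcases eq_or_lt_of_le hp0 with hp | hp
  · have h1 := h.le_marg₃ hP hP hQ
    have h2 := h.nonneg P P Q
    rw [← hp] at h1 ⊢
    simp only [mul_zero, zero_mul] at h1 ⊢
    linarith
  rcases eq_or_lt_of_le hp1 with hp' | hp'
  · have hq : μ.real Q = 0 := by
      have := measureReal_union (μ := μ) hPQ hQ
      have h3 : μ.real (P ∪ Q) ≤ 1 := measureReal_le_one
      linarith
    have h1 := h.le_marg₂ hP hP hQ
    have h2 := h.nonneg P P Q
    rw [hq] at h1 ⊢
    simp only [mul_zero] at h1 ⊢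
    linarith
  set d := μ.real P with hd
  set q := μ.real Q with hq
  set ρ : ℝ := d ^ 2 + (1 - d) ^ 2 with hρ
  have hρ0 : 0 ≤ ρ := by positivity
  have hρ1 : ρ < 1 := by rw [hρ]; nlinarith
  have claim : ∀ r : ℕ, ∀ P' : Set Ω, MeasurableSet P' → Disjoint P' Q →
      |ν P' P' Q - μ.real P' * μ.real P' * q| ≤ ρ ^ r * (μ.real P') ^ 2 := by
    intro r
    induction r with
    | zero =>
      intro P' hP' _
      have h1 := h.le_marg₃ hP' hP' hQ
      have h2 := h.nonneg P' P' Q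
      have h3 : 0 ≤ μ.real P' * μ.real P' := by positivity
      rw [abs_le]
      constructor <;> nlinarith
    | succ r ih =>
      intro P' hP' hP'Q
      have hstep : ∀ k : ℕ, |ν P' P' Q - μ.real P' * μ.real P' * q|
          ≤ ρ ^ r * ((μ.real (P' ∩ T^[k] ⁻¹' P)) ^ 2
            + (μ.real P' - μ.real (P' ∩ T^[k] ⁻¹' P)) ^ 2) := by
        intro k
        have hE : MeasurableSet (T^[k] ⁻¹' P) := (hT.iterate k).measurable hP
        set P1 := P' ∩ T^[k] ⁻¹' P with hP1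
        set P2 := P' \ T^[k] ⁻¹' P with hP2
        have m1 : MeasurableSet P1 := hP'.inter hE
        have m2 : MeasurableSet P2 := hP'.diff hE
        have d12 : Disjoint P1 P2 := Set.disjoint_sdiff_right.mono_left Set.inter_subset_right
        have hun : P1 ∪ P2 = P' := Set.inter_union_sdiff P' _
        have d1Q : Disjoint P1 Q := hP'Q.mono_left Set.inter_subset_left
        have d2Q : Disjoint P2 Q := hP'Q.mono_left Set.sdiff_subset
        have hμ : μ.real P' = μ.real P1 + μ.real P2 := by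
          rw [← hun]; exact measureReal_union d12 m2
        have e1 : ν P' P' Q = ν P1 P1 Q + ν P1 P2 Q + (ν P2 P1 Q + ν P2 P2 Q) := by
          conv_lhs => rw [← hun]
          rw [h.add₁ m1 m2 (m1.union m2) hQ d12, h.add₂ m1 m1 m2 hQ d12, h.add₂ m2 m1 m2 hQ d12]
        have c12 := hdisj (A := P1) (B := P2) (C := Q) ⟨m1, m2, hQ, d12, d1Q, d2Q⟩
        have c21 := hdisj (A := P2) (B := P1) (C := Q) ⟨m2, m1, hQ, d12.symm, d2Q, d1Q⟩
        have i1 := ih P1 m1 d1Q
        have i2 := ih P2 m2 d2Q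
        have e2 : ν P' P' Q - μ.real P' * μ.real P' * q
            = (ν P1 P1 Q - μ.real P1 * μ.real P1 * q) + (ν P2 P2 Q - μ.real P2 * μ.real P2 * q) := by
          rw [e1, c12, c21, hμ]; ring
        have e3 : μ.real P' - μ.real P1 = μ.real P2 := by rw [hμ]; ring
        rw [e2, e3]
        calc |(ν P1 P1 Q - μ.real P1 * μ.real P1 * q) + (ν P2 P2 Q - μ.real P2 * μ.real P2 * q)|
            ≤ |ν P1 P1 Q - μ.real P1 * μ.real P1 * q| + |ν P2 P2 Q - μ.real P2 * μ.real P2 * q| :=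
              abs_add_le _ _
          _ ≤ ρ ^ r * (μ.real P1) ^ 2 + ρ ^ r * (μ.real P2) ^ 2 := add_le_add i1 i2
          _ = ρ ^ r * ((μ.real P1) ^ 2 + (μ.real P2) ^ 2) := by ring
      have hlim : Tendsto (fun k : ℕ => ρ ^ r * ((μ.real (P' ∩ T^[k] ⁻¹' P)) ^ 2
            + (μ.real P' - μ.real (P' ∩ T^[k] ⁻¹' P)) ^ 2)) atTop
          (𝓝 (ρ ^ r * ((μ.real P' * d) ^ 2 + (μ.real P' - μ.real P' * d) ^ 2))) := by
        have hm := hmix P' P hP' hP
        exact ((hm.pow 2).add ((tendsto_const_nhds.sub hm).pow 2)).const_mul _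
      have := ge_of_tendsto' hlim hstep
      calc |ν P' P' Q - μ.real P' * μ.real P' * q|
          ≤ ρ ^ r * ((μ.real P' * d) ^ 2 + (μ.real P' - μ.real P' * d) ^ 2) := this
        _ = ρ ^ (r + 1) * (μ.real P') ^ 2 := by rw [hρ]; ring
  have hlim0 : Tendsto (fun r : ℕ => ρ ^ r * d ^ 2) atTop (𝓝 (0 * d ^ 2)) :=
    (tendsto_pow_atTop_nhds_zero_of_lt_one hρ0 hρ1).mul_const _
  rw [zero_mul] at hlim0
  have hfin := ge_of_tendsto' hlim0 (fun r => claim r P hP hPQ)
  have := abs_nonpos_iff.mp hfin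
  linarith

end Vale.Agent.P102
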